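import Vale.Agent.P235.MathlibUsed

set_option linter.all false

/-!
# P235, the wall lemma (helper879): the deterministic part

`G` is a finite connected graph with unit edges, `o` a root. A wall of scale `k` at level `s`
contracts the boundaries of the components of `{lev > s}` inside a component of
`{lev > s - 2^k}` with narrow boundary.
-/

namespace Vale.Agent.P235.Wall

open Finset

variable {V : Type} (G : SimpleGraph V) (o : V)

/-- the distance from the root -/
noncomputable def lev (v : V) : ℕ := G.dist o v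

/-- `x` and `y` are joined inside `{lev > t}` -/
def Rch (t : ℕ) (x y : V) : Prop :=
  t < lev G o x ∧ Relation.ReflTransGen (fun a b => G.Adj a b ∧ t < lev G o b) x y

/-- the boundary of the component of `x` in `{lev > t}` -/
def bd (t : ℕ) (x : V) : Set V := {a | lev G o a = t ∧ ∃ b, G.Adj a b ∧ Rch G o t x b}

/-- the diameter of the boundary -/
noncomputable def wid (t : ℕ) (x : V) : ℕ :=
  sSup {n | ∃ a ∈ bd G o t x, ∃ b ∈ bd G o t x, n = G.dist a b}

variable {G o}

namespace Rch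

lemma left {t : ℕ} {x y : V} (h : Rch G o t x y) : t < lev G o x := h.1

lemma right {t : ℕ} {x y : V} (h : Rch G o t x y) : t < lev G o y := by
  obtain ⟨h1, h2⟩ := h
  induction h2 with
  | refl => exact h1
  | tail _ h3 _ => exact h3.2

lemma refl {t : ℕ} {x : V} (h : t < lev G o x) : Rch G o t x x := ⟨h, .refl⟩

lemma step {t : ℕ} {x y z : V} (h : Rch G o t x y) (ha : G.Adj y z) (hz : t < lev G o z) :
    Rch G o t x z := ⟨h.1, h.2.tail ⟨ha, hz⟩⟩

lemma trans {t : ℕ} {x y z : V} (h : Rch G o t x y) (h' : Rch G o t y z) : Rch G o t x z :=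
  ⟨h.1, h.2.trans h'.2⟩

lemma symm {t : ℕ} {x y : V} (h : Rch G o t x y) : Rch G o t y x := by
  obtain ⟨h1, h2⟩ := h
  induction h2 with
  | refl => exact refl h1
  | @tail b c h3 h4 ih =>
    exact ((refl (G := G) (o := o) h4.2).step h4.1.symm ih.left).trans ih

lemma mono {s t : ℕ} (hst : s ≤ t) {x y : V} (h : Rch G o t x y) : Rch G o s x y := by
  obtain ⟨h1, h2⟩ := h
  refine ⟨lt_of_le_of_lt hst h1, ?_⟩
  clear h1
  induction h2 with
  | refl => exact .refl
  | tail _ h3 ih => exact ih.tail ⟨h3.1, lt_of_le_of_lt hst h3.2⟩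

end Rch

lemma lev_adj (hG : G.Connected) {a b : V} (h : G.Adj a b) : lev G o b ≤ lev G o a + 1 := by
  have h1 := hG.dist_triangle (u := o) (v := a) (w := b)
  have h2 : G.dist a b = 1 := SimpleGraph.dist_eq_one_iff_adj.2 h
  unfold lev
  omega

lemma exists_lower (hG : G.Connected) {v : V} (h : 0 < lev G o v) :
    ∃ w, G.Adj v w ∧ lev G o w + 1 = lev G o v := by
  obtain ⟨p, hp⟩ := (hG v o).exists_walk_length_eq_dist
  have h0 : G.dist v o = lev G o v := SimpleGraph.dist_comm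
  cases p with
  | nil => simp [lev] at h
  | @cons _ w _ ha q =>
    refine ⟨w, ha, ?_⟩
    have h1 : G.dist w o ≤ q.length := SimpleGraph.dist_le q
    have h2 : G.dist w o = lev G o w := SimpleGraph.dist_comm
    have h3 := lev_adj (o := o) hG ha.symm
    rw [SimpleGraph.Walk.length_cons] at hp
    omega

lemma bd_congr {t : ℕ} {x y : V} (h : Rch G o t x y) : bd G o t x = bd G o t y := by
  ext a
  constructor
  · rintro ⟨h1, b, h2, h3⟩
    exact ⟨h1, b, h2, h.symm.trans h3⟩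
  · rintro ⟨h1, b, h2, h3⟩
    exact ⟨h1, b, h2, h.trans h3⟩

lemma wid_congr {t : ℕ} {x y : V} (h : Rch G o t x y) : wid G o t x = wid G o t y := by
  unfold wid
  rw [bd_congr h]

lemma dist_le_wid [Finite V] {t : ℕ} {x a b : V} (ha : a ∈ bd G o t x) (hb : b ∈ bd G o t x) :
    G.dist a b ≤ wid G o t x := by
  refine le_csSup ?_ ⟨a, ha, b, hb, rfl⟩
  refine Set.Finite.bddAbove ?_
  refine (Set.finite_range (fun p : V × V => G.dist p.1 p.2)).subset ?_
  rintro n ⟨a, -, b, -, rfl⟩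
  exact ⟨(a, b), rfl⟩

/-- the descending path from a vertex above `t` reaches the boundary of its component -/
lemma descent (hG : G.Connected) {t : ℕ} : ∀ (n : ℕ) {v : V}, lev G o v = t + 1 + n →
    ∃ a ∈ bd G o t v, G.dist v a ≤ n + 1 := by
  intro n
  induction n with
  | zero =>
    intro v hv
    obtain ⟨w, hw, hl⟩ := exists_lower (o := o) hG (v := v) (by omega)
    refine ⟨w, ⟨by omega, v, hw.symm, Rch.refl (by omega)⟩, ?_⟩
    rw [SimpleGraph.dist_eq_one_iff_adj.2 hw]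
  | succ n ih =>
    intro v hv
    obtain ⟨w, hw, hl⟩ := exists_lower (o := o) hG (v := v) (by omega)
    obtain ⟨a, ha, hd⟩ := ih (v := w) (by omega)
    have h1 : Rch G o t v w := (Rch.refl (by omega)).step hw (by omega)
    refine ⟨a, by rw [bd_congr h1]; exact ha, ?_⟩
    have h2 := hG.dist_triangle (u := v) (v := w) (w := a)
    rw [SimpleGraph.dist_eq_one_iff_adj.2 hw] at h2
    omega

/-! ### The jump lemma -/

/-- paths with free jumps inside the sets `S κ`, `κ ∈ 𝒦` -/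
inductive PK {ι : Type} (G : SimpleGraph V) (𝒦 : Finset ι) (S : ι → Set V) (x : V) : V → ℕ → Prop
  | nil : PK G 𝒦 S x x 0
  | edge {y z : V} {n : ℕ} : PK G 𝒦 S x y n → G.Adj y z → PK G 𝒦 S x z (n + 1)
  | jump {y z : V} {n : ℕ} {κ : ι} : PK G 𝒦 S x y n → κ ∈ 𝒦 → y ∈ S κ → z ∈ S κ →
      PK G 𝒦 S x z n

lemma PK.last [DecidableEq V] {ι : Type} [DecidableEq ι] {𝒦 : Finset ι} {S : ι → Set V} {κ : ι} {v y : V}
    {n : ℕ} (hv : v ∈ S κ) (h : PK G 𝒦 S v y n) :
    ∃ w ∈ S κ, ∃ m ≤ n, PK G (𝒦.erase κ) S w y m := by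
  induction h with
  | nil => exact ⟨v, hv, 0, le_rfl, .nil⟩
  | edge _ ha ih =>
    obtain ⟨w, hw, m, hm, hp⟩ := ih
    exact ⟨w, hw, m + 1, by omega, hp.edge ha⟩
  | @jump y z n κ' _ hκ hy hz ih =>
    obtain ⟨w, hw, m, hm, hp⟩ := ih
    by_cases hc : κ' = κ
    · subst hc
      exact ⟨z, hz, 0, by omega, .nil⟩
    · exact ⟨w, hw, m, hm, hp.jump (Finset.mem_erase.2 ⟨hc, hκ⟩) hy hz⟩

lemma PK.first (hG : G.Connected) {ι : Type} {𝒦 : Finset ι} {S : ι → Set V} {x y : V}
    {n : ℕ} (h : PK G 𝒦 S x y n) : G.dist x y ≤ n ∨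
      ∃ κ ∈ 𝒦, ∃ v ∈ S κ, ∃ m k, m + k ≤ n ∧ G.dist x v ≤ m ∧ PK G 𝒦 S v y k := by
  induction h with
  | nil => exact .inl (by simp)
  | @edge y z n _ ha ih =>
    rcases ih with h1 | ⟨κ, hκ, v, hv, m, k, hmk, hd, hp⟩
    · refine .inl ?_
      have h2 := hG.dist_triangle (u := x) (v := y) (w := z)
      rw [SimpleGraph.dist_eq_one_iff_adj.2 ha] at h2
      omega
    · exact .inr ⟨κ, hκ, v, hv, m, k + 1, by omega, hd, hp.edge ha⟩
  | @jump y z n κ' _ hκ' hy hz ih =>
    rcases ih with h1 | ⟨κ, hκ, v, hv, m, k, hmk, hd, hp⟩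
    · exact .inr ⟨κ', hκ', y, hy, n, 0, by omega, h1, PK.nil.jump hκ' hy hz⟩
    · exact .inr ⟨κ, hκ, v, hv, m, k, hmk, hd, hp.jump hκ' hy hz⟩

lemma jump_lemma [DecidableEq V] (hG : G.Connected) {ι : Type} [DecidableEq ι] {S : ι → Set V} {B : ι → ℕ} :
    ∀ (c : ℕ) (𝒦 : Finset ι), 𝒦.card = c →
    (∀ κ ∈ 𝒦, ∀ v ∈ S κ, ∀ w ∈ S κ, G.dist v w ≤ B κ) → ∀ {x y : V} {n : ℕ}, PK G 𝒦 S x y n →
    G.dist x y ≤ n + ∑ κ ∈ 𝒦, B κ := by
  intro c
  induction c with
  | zero =>
    intro 𝒦 hc hS x y n h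
    rcases h.first hG with h1 | ⟨κ, hκ, _⟩
    · omega
    · rw [Finset.card_eq_zero] at hc
      rw [hc] at hκ
      simp at hκ
  | succ c ih =>
    intro 𝒦 hc hS x y n h
    rcases h.first hG with h1 | ⟨κ, hκ, v, hv, m, k, hmk, hd, hp⟩
    · omega
    · obtain ⟨w, hw, k', hk', hp'⟩ := hp.last hv
      have h2 := ih (𝒦.erase κ) (by rw [Finset.card_erase_of_mem hκ]; omega)
        (fun κ' hκ' => hS κ' (Finset.mem_of_mem_erase hκ')) hp'
      have h3 := hS κ hκ v hv w hw
      have h4 := Finset.add_sum_erase 𝒦 B hκ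
      have h5 := hG.dist_triangle (u := x) (v := v) (w := y)
      have h6 := hG.dist_triangle (u := v) (v := w) (w := y)
      omega

/-! ### Walls -/

/-- A family of walls: `W k s a` says that the component of `a` in `{lev > s - 2^k}` is cut at
level `s` (at scale `k`); its boundary must be narrower than `2^(k+1)`. -/
structure Walls (G : SimpleGraph V) (o : V) where
  W : ℕ → ℕ → V → Prop
  pow_le : ∀ k s a, W k s a → 2 ^ k ≤ s
  lt_lev : ∀ k s a, W k s a → s - 2 ^ k < lev G o a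
  wid_lt : ∀ k s a, W k s a → wid G o (s - 2 ^ k) a < 2 ^ (k + 1)
  inv : ∀ k s a b, Rch G o (s - 2 ^ k) a b → W k s a → W k s b

variable (w : Walls G o)

/-- the jumps: two boundary vertices of the same component of `{lev > s}` -/
def J (a b : V) : Prop := lev G o a = lev G o b ∧ ∃ k, w.W k (lev G o a) a ∧
  ∃ c, a ∈ bd G o (lev G o a) c ∧ b ∈ bd G o (lev G o a) c

variable {w}

lemma rch_of_bd {t s : ℕ} (hts : t < s) {a b c : V} (ha : a ∈ bd G o s c)
    (hb : b ∈ bd G o s c) : Rch G o t a b := by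
  obtain ⟨h1, a', h2, h3⟩ := ha
  obtain ⟨h4, b', h5, h6⟩ := hb
  have h7 : Rch G o t a' b' := ((h3.symm).trans h6).mono hts.le
  have h8 : Rch G o t a a' := (Rch.refl (by omega)).step h2 h7.left
  exact (h8.trans h7).step h5.symm (by omega)

lemma J.rch {a b : V} (h : J w a b) {t : ℕ} {x : V} (hx : Rch G o t x a) : Rch G o t x b := by
  obtain ⟨h1, k, h2, c, h3, h4⟩ := h
  exact hx.trans (rch_of_bd hx.right h3 h4)

lemma J.symm {a b : V} (h : J w a b) : J w b a := by
  obtain ⟨h1, k, h2, c, h3, h4⟩ := h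
  have hp : 0 < 2 ^ k := by positivity
  have h5 := w.pow_le _ _ _ h2
  refine ⟨h1.symm, k, ?_, c, ?_, ?_⟩
  · rw [← h1]
    exact w.inv _ _ _ _ (rch_of_bd (by omega) h3 h4) h2
  · rw [← h1]; exact h4
  · rw [← h1]; exact h3

/-- paths with free jumps -/
inductive Pth (w : Walls G o) (x : V) : V → ℕ → Prop
  | nil : Pth w x x 0
  | edge {y z : V} {n : ℕ} : Pth w x y n → G.Adj y z → Pth w x z (n + 1)
  | jump {y z : V} {n : ℕ} : Pth w x y n → J w y z → Pth w x z n

namespace Pth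

lemma trans {x y z : V} {n m : ℕ} (h : Pth w x y n) (h' : Pth w y z m) : Pth w x z (n + m) := by
  induction h' with
  | nil => exact h
  | edge _ ha ih => exact ih.edge ha
  | jump _ hj ih => exact ih.jump hj

lemma symm {x y : V} {n : ℕ} (h : Pth w x y n) : Pth w y x n := by
  induction h with
  | nil => exact .nil
  | @edge y z n _ ha ih =>
    have := (Pth.nil (w := w) (x := z)).edge ha.symm |>.trans ih
    rwa [show 0 + 1 + n = n + 1 by omega] at this
  | @jump y z n _ hj ih =>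
    have := (Pth.nil (w := w) (x := z)).jump hj.symm |>.trans ih
    rwa [Nat.zero_add] at this

lemma of_walk {x y : V} (p : G.Walk x y) : Pth w x y p.length := by
  induction p with
  | nil => exact .nil
  | cons ha q ih =>
    have := (Pth.nil (w := w)).edge ha |>.trans ih
    rw [SimpleGraph.Walk.length_cons]
    rwa [show 0 + 1 + q.length = q.length + 1 by omega] at this

lemma of_dist (hG : G.Connected) (x y : V) : Pth w x y (G.dist x y) := by
  obtain ⟨p, hp⟩ := (hG x y).exists_walk_length_eq_dist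
  rw [← hp]
  exact of_walk p

lemma lev_le (hG : G.Connected) {x y : V} {n : ℕ} (h : Pth w x y n) :
    lev G o y ≤ lev G o x + n := by
  induction h with
  | nil => simp
  | edge _ ha ih =>
    have := lev_adj (o := o) hG ha
    omega
  | jump _ hj ih =>
    have := hj.1
    omega

lemma le_lev (hG : G.Connected) {x y : V} {n : ℕ} (h : Pth w x y n) :
    lev G o x ≤ lev G o y + n := h.symm.lev_le hG

/-- a path entering the component of `c` in `{lev > t}` crosses its boundary -/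
lemma entry (hG : G.Connected) {t : ℕ} {c x v : V} {n : ℕ} (h : Pth w x v n)
    (hx : ¬ Rch G o t c x) (hv : Rch G o t c v) :
    ∃ a ∈ bd G o t c, ∃ m, Pth w x a m ∧ m + (lev G o v - t) ≤ n := by
  induction h with
  | nil => exact absurd hv hx
  | @edge y z n hp ha ih =>
    have h1 := lev_adj (o := o) hG ha
    have h2 := hv.right
    by_cases hy : Rch G o t c y
    · obtain ⟨a, ha', m, hm, hle⟩ := ih hy
      have := hy.right
      exact ⟨a, ha', m, hm, by omega⟩
    · have h3 : ¬ t < lev G o y := fun h3 => hy (hv.step ha.symm h3)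
      exact ⟨y, ⟨by omega, z, ha, hv⟩, n, hp, by omega⟩
  | @jump y z n hp hj ih =>
    have hy : Rch G o t c y := hj.symm.rch hv
    obtain ⟨a, ha', m, hm, hle⟩ := ih hy
    have := hj.1
    exact ⟨a, ha', m, hm, by omega⟩

end Pth

/-- on a shortest path every jump is relevant for one of the ends -/
lemma relevant [Finite V] (hG : G.Connected) {x y a b : V} {n m k : ℕ} (h1 : Pth w x a n)
    (h2 : Pth w b y m) (hmin : ∀ l, Pth w x y l → n + m ≤ l) (hk : w.W k (lev G o a) a)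
    {c : V} (ha : a ∈ bd G o (lev G o a) c) (hb : b ∈ bd G o (lev G o a) c) :
    Rch G o (lev G o a - 2 ^ k) x a ∨ Rch G o (lev G o a - 2 ^ k) y a := by
  by_contra hcon
  push Not at hcon
  obtain ⟨hx, hy⟩ := hcon
  have hp : 0 < 2 ^ k := by positivity
  have h5 := w.pow_le _ _ _ hk
  have h6 := w.wid_lt _ _ _ hk
  have hab : Rch G o (lev G o a - 2 ^ k) a b := rch_of_bd (by omega) ha hb
  have haa : Rch G o (lev G o a - 2 ^ k) a a := Rch.refl (by omega)
  have hlb : lev G o b = lev G o a := hb.1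
  obtain ⟨p, hp1, m1, hm1, hl1⟩ := h1.entry hG (t := lev G o a - 2 ^ k) (c := a)
    (fun h => hx h.symm) haa
  obtain ⟨q, hq1, m2, hm2, hl2⟩ := h2.symm.entry hG (t := lev G o a - 2 ^ k) (c := a)
    (fun h => hy h.symm) hab
  have h7 := hmin _ ((hm1.trans (Pth.of_dist hG p q)).trans hm2.symm)
  have h8 := dist_le_wid hp1 hq1
  rw [pow_succ] at h6
  omega

/-- the vertices at level `s` of the component of `z` in `{lev > s - 2^k}` -/
def Slab (G : SimpleGraph V) (o : V) (x y : V) (κ : Bool × ℕ × ℕ) : Set V :=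
  {v | lev G o v = κ.2.2 ∧ Rch G o (κ.2.2 - 2 ^ κ.2.1) (if κ.1 then y else x) v}

lemma slab_diam [Finite V] (hG : G.Connected) {x y : V} {κ : Bool × ℕ × ℕ}
    (hκ : w.W κ.2.1 κ.2.2 (if κ.1 then y else x)) {v v' : V} (hv : v ∈ Slab G o x y κ)
    (hv' : v' ∈ Slab G o x y κ) : G.dist v v' ≤ 2 ^ (κ.2.1 + 2) := by
  obtain ⟨b, k, s⟩ := κ
  simp only at hκ hv hv' ⊢
  obtain ⟨z, hz⟩ : ∃ z, z = (if b then y else x) := ⟨_, rfl⟩
  obtain ⟨h1, h2⟩ := hv
  obtain ⟨h3, h4⟩ := hv'
  simp only at h1 h2 h3 h4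
  rw [← hz] at hκ h2 h4
  have hp : 0 < 2 ^ k := by positivity
  have h5 := w.pow_le _ _ _ hκ
  have h6 := w.wid_lt _ _ _ hκ
  obtain ⟨a, ha, hda⟩ := descent (o := o) hG (t := s - 2 ^ k) (2 ^ k - 1) (v := v) (by omega)
  obtain ⟨a', ha', hda'⟩ := descent (o := o) hG (t := s - 2 ^ k) (2 ^ k - 1) (v := v') (by omega)
  rw [← bd_congr h2] at ha
  rw [← bd_congr h4] at ha'
  have h7 := dist_le_wid ha ha'
  have h8 := hG.dist_triangle (u := v) (v := a) (w := v')
  have h9 := hG.dist_triangle (u := a) (v := a') (w := v')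
  have h10 : G.dist a' v' = G.dist v' a' := SimpleGraph.dist_comm
  have e1 : 2 ^ (k + 1) = 2 ^ k * 2 := pow_succ _ _
  have e2 : 2 ^ (k + 2) = 2 ^ k * 4 := by rw [pow_add]; norm_num
  omega

open Classical in
/-- the walls relevant for `z` at levels closer than `r` to `z` -/
noncomputable def rel (w : Walls G o) (N r : ℕ) (z : V) : Finset (ℕ × ℕ) :=
  (range N ×ˢ range N).filter fun κ =>
    w.W κ.1 κ.2 z ∧ κ.2 < lev G o z + r ∧ lev G o z < κ.2 + r

/-- **The wall lemma, deterministic part.** -/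
theorem wall_le [Finite V] (hG : G.Connected) {N : ℕ} (hN : ∀ v, lev G o v < N) {x y : V}
    {n : ℕ} (h : Pth w x y n) :
    G.dist x y ≤ n + ∑ κ ∈ rel w N (G.dist x y) x, min (2 ^ (κ.1 + 2)) (G.dist x y) +
      ∑ κ ∈ rel w N (G.dist x y) y, min (2 ^ (κ.1 + 2)) (G.dist x y) := by
  classical
  obtain ⟨r, hr⟩ : ∃ r, r = G.dist x y := ⟨_, rfl⟩
  rw [← hr]
  -- a shortest path
  obtain ⟨m, hm, hmin⟩ : ∃ m, Pth w x y m ∧ ∀ l, Pth w x y l → m ≤ l := by
    have hex : ∃ m, Pth w x y m := ⟨n, h⟩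
    exact ⟨Nat.find hex, Nat.find_spec hex, fun l hl => Nat.find_min' hex hl⟩
  have hmn := hmin n h
  by_cases hmr : r ≤ m
  · omega
  push Not at hmr
  -- the classes
  obtain ⟨𝒦, h𝒦⟩ : ∃ 𝒦 : Finset (Bool × ℕ × ℕ), 𝒦 =
      (rel w N r x).map ⟨fun κ => (false, κ), fun a b hab => by simpa using hab⟩ ∪
      (rel w N r y).map ⟨fun κ => (true, κ), fun a b hab => by simpa using hab⟩ := ⟨_, rfl⟩
  have hmemx : ∀ k s, (k, s) ∈ rel w N r x → (false, k, s) ∈ 𝒦 := fun k s hks => by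
    rw [h𝒦]
    exact Finset.mem_union_left _ (Finset.mem_map.2 ⟨(k, s), hks, rfl⟩)
  have hmemy : ∀ k s, (k, s) ∈ rel w N r y → (true, k, s) ∈ 𝒦 := fun k s hks => by
    rw [h𝒦]
    exact Finset.mem_union_right _ (Finset.mem_map.2 ⟨(k, s), hks, rfl⟩)
  have hW : ∀ κ ∈ 𝒦, w.W κ.2.1 κ.2.2 (if κ.1 then y else x) := by
    intro κ hκ
    rw [h𝒦, Finset.mem_union, Finset.mem_map, Finset.mem_map] at hκ
    rcases hκ with ⟨κ', hκ', rfl⟩ | ⟨κ', hκ', rfl⟩
    · exact (Finset.mem_filter.1 hκ').2.1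
    · exact (Finset.mem_filter.1 hκ').2.1
  -- the path only uses these classes
  have hkey : ∀ z a, Pth w x z a → ∀ b, Pth w z y b → a + b = m →
      PK G 𝒦 (Slab G o x y) x z a := by
    intro z a hz
    induction hz with
    | nil => intro b _ _; exact .nil
    | @edge z z' a hz ha ih =>
      intro b hb hab
      have h1 : Pth w z y (1 + b) := by
        have := (Pth.nil (w := w) (x := z)).edge ha |>.trans hb
        simpa using this
      exact (ih (1 + b) h1 (by omega)).edge ha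
    | @jump z z' a hz hj ih =>
      intro b hb hab
      have h1 : Pth w z y b := by
        have := (Pth.nil (w := w) (x := z)).jump hj |>.trans hb
        simpa using this
      have h2 := ih b h1 hab
      obtain ⟨hl, k, hk, c, hc1, hc2⟩ := hj
      have hp : 0 < 2 ^ k := by positivity
      have h5 := w.pow_le _ _ _ hk
      have hzz : Rch G o (lev G o z - 2 ^ k) z z' := rch_of_bd (by omega) hc1 hc2
      have hkN : k < N := by
        have h6 : k < 2 ^ k := Nat.lt_two_pow_self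
        have := hN z
        omega
      rcases relevant hG hz hb (fun l hl' => by have := hmin l hl'; omega) hk hc1 hc2 with h3 | h3
      · have h7 : w.W k (lev G o z) x := w.inv _ _ _ _ h3.symm hk
        have h8 := hz.lev_le hG
        have h9 := hz.le_lev hG
        have hmem : (k, lev G o z) ∈ rel w N r x :=
          Finset.mem_filter.2 ⟨Finset.mem_product.2 ⟨Finset.mem_range.2 hkN,
            Finset.mem_range.2 (hN z)⟩, h7, by show lev G o z < lev G o x + r; omega,
              by show lev G o x < lev G o z + r; omega⟩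
        exact h2.jump (hmemx _ _ hmem) ⟨rfl, h3⟩ ⟨hl.symm, h3.trans hzz⟩
      · have h7 : w.W k (lev G o z) y := w.inv _ _ _ _ h3.symm hk
        have h8 := hb.lev_le hG
        have h9 := hb.le_lev hG
        have hmem : (k, lev G o z) ∈ rel w N r y :=
          Finset.mem_filter.2 ⟨Finset.mem_product.2 ⟨Finset.mem_range.2 hkN,
            Finset.mem_range.2 (hN z)⟩, h7, by show lev G o z < lev G o y + r; omega,
              by show lev G o y < lev G o z + r; omega⟩
        exact h2.jump (hmemy _ _ hmem) ⟨rfl, h3⟩ ⟨hl.symm, h3.trans hzz⟩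
  have hPK := hkey y m hm 0 .nil (by omega)
  have hJ := jump_lemma (B := fun κ : Bool × ℕ × ℕ => 2 ^ (κ.2.1 + 2)) hG _ 𝒦 rfl
    (fun κ hκ v hv v' hv' => slab_diam (w := w) hG (hW κ hκ) hv hv') hPK
  have hsum : ∑ κ ∈ 𝒦, min (2 ^ (κ.2.1 + 2)) r =
      ∑ κ ∈ rel w N r x, min (2 ^ (κ.1 + 2)) r + ∑ κ ∈ rel w N r y, min (2 ^ (κ.1 + 2)) r := by
    rw [h𝒦, Finset.sum_union, Finset.sum_map, Finset.sum_map]
    · rfl
    · rw [Finset.disjoint_left]
      intro κ h1 h2
      rw [Finset.mem_map] at h1 h2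
      obtain ⟨κ', -, rfl⟩ := h1
      obtain ⟨κ'', -, h3⟩ := h2
      have h4 : true = false := congrArg Prod.fst h3
      exact absurd h4 (by decide)
  have hfin : r ≤ m + ∑ κ ∈ 𝒦, min (2 ^ (κ.2.1 + 2)) r := by
    by_cases hbig : ∃ κ ∈ 𝒦, r ≤ 2 ^ (κ.2.1 + 2)
    · obtain ⟨κ, hκ, hle⟩ := hbig
      have h1 := Finset.single_le_sum (f := fun κ : Bool × ℕ × ℕ => min (2 ^ (κ.2.1 + 2)) r)
        (fun _ _ => Nat.zero_le _) hκ
      have h1' : min (2 ^ (κ.2.1 + 2)) r ≤ ∑ κ ∈ 𝒦, min (2 ^ (κ.2.1 + 2)) r := h1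
      rw [min_eq_right hle] at h1'
      omega
    · push Not at hbig
      have h1 : ∑ κ ∈ 𝒦, min (2 ^ (κ.2.1 + 2)) r = ∑ κ ∈ 𝒦, 2 ^ (κ.2.1 + 2) :=
        Finset.sum_congr rfl fun κ hκ => min_eq_left (hbig κ hκ).le
      rw [h1, hr]
      exact hJ
  rw [hsum] at hfin
  omega

end Vale.Agent.P235.Wall
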