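import Vale.Agent.P235.R2.H453.Wall

set_option linter.all false

/-!
# P235, the wall lemma: the random family of walls

Each pair `(k, s)` with `k, s < N` is present independently with probability `1 / (L 2^(k+1))`.
-/

namespace Vale.Agent.P235.Wall

open Finset

variable {V : Type} {G : SimpleGraph V} {o : V}

/-- the walls given by a set of pairs (scale, level) -/
def walls (G : SimpleGraph V) (o : V) (ω : Finset (ℕ × ℕ)) : Walls G o where
  W k s a := (k, s) ∈ ω ∧ 2 ^ k ≤ s ∧ s - 2 ^ k < lev G o a ∧ 2 ^ k ≤ wid G o (s - 2 ^ k) a ∧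
    wid G o (s - 2 ^ k) a < 2 ^ (k + 1)
  pow_le k s a h := h.2.1
  lt_lev k s a h := h.2.2.1
  wid_lt k s a h := h.2.2.2.2
  inv k s a b hab h := ⟨h.1, h.2.1, hab.right, by rw [← wid_congr hab]; exact h.2.2.2.1,
    by rw [← wid_congr hab]; exact h.2.2.2.2⟩

/-- the probability of the pair `(k, s)` -/
noncomputable def pr (L : ℝ) (κ : ℕ × ℕ) : ℝ := 1 / (L * 2 ^ (κ.1 + 1))

/-- the pairs -/
def box (N : ℕ) : Finset (ℕ × ℕ) := range N ×ˢ range N

/-- the law on the subsets of `box N` -/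
noncomputable def wt (L : ℝ) (N : ℕ) (ω : Finset (ℕ × ℕ)) : ℝ :=
  ∏ κ ∈ box N, if κ ∈ ω then pr L κ else 1 - pr L κ

/-- the distance with the walls of `ω` contracted -/
noncomputable def dw (w : Walls G o) (x y : V) : ℕ := sInf {n | Pth w x y n}

lemma pr_nonneg {L : ℝ} (hL : 1 ≤ L) (κ : ℕ × ℕ) : 0 ≤ pr L κ := by
  unfold pr
  positivity

lemma pr_le_one {L : ℝ} (hL : 1 ≤ L) (κ : ℕ × ℕ) : pr L κ ≤ 1 := by
  unfold pr
  rw [div_le_one (by positivity)]
  have h1 : (1 : ℝ) ≤ 2 ^ (κ.1 + 1) := one_le_pow₀ (by norm_num)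
  nlinarith

lemma wt_nonneg {L : ℝ} (hL : 1 ≤ L) (N : ℕ) (ω : Finset (ℕ × ℕ)) : 0 ≤ wt L N ω := by
  refine Finset.prod_nonneg fun κ _ => ?_
  split_ifs
  · exact pr_nonneg hL κ
  · linarith [pr_le_one hL κ]

lemma wt_eq {L : ℝ} {N : ℕ} {ω : Finset (ℕ × ℕ)} (h : ω ⊆ box N) :
    wt L N ω = (∏ κ ∈ ω, pr L κ) * ∏ κ ∈ box N \ ω, (1 - pr L κ) := by
  unfold wt
  rw [← Finset.prod_sdiff h, mul_comm]
  congr 1
  · exact Finset.prod_congr rfl fun κ hκ => by rw [if_pos hκ]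
  · exact Finset.prod_congr rfl fun κ hκ => by rw [if_neg (Finset.mem_sdiff.1 hκ).2]

/-- the weights of the sets containing none of the pairs of `A` -/
lemma sum_wt_disjoint {L : ℝ} {N : ℕ} {A : Finset (ℕ × ℕ)} (hA : A ⊆ box N) :
    ∑ ω ∈ (box N).powerset, (if Disjoint ω A then wt L N ω else 0) = ∏ κ ∈ A, (1 - pr L κ) := by
  have h1 : ∏ κ ∈ box N, ((if κ ∈ A then 0 else pr L κ) + (1 - pr L κ)) =
      ∏ κ ∈ A, (1 - pr L κ) := by
    rw [← Finset.prod_sdiff hA]
    rw [Finset.prod_eq_one fun κ hκ => by rw [if_neg (Finset.mem_sdiff.1 hκ).2]; ring, one_mul]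
    exact Finset.prod_congr rfl fun κ hκ => by rw [if_pos hκ, zero_add]
  rw [← h1, Finset.prod_add]
  refine Finset.sum_congr rfl fun ω hω => ?_
  rw [Finset.mem_powerset] at hω
  split_ifs with h
  · rw [wt_eq hω]
    congr 1
    refine Finset.prod_congr rfl fun κ hκ => ?_
    rw [if_neg (Finset.disjoint_left.1 h hκ)]
  · rw [Finset.not_disjoint_iff] at h
    obtain ⟨κ, h1, h2⟩ := h
    rw [Finset.prod_eq_zero h1 (by rw [if_pos h2]), zero_mul]

lemma sum_wt {L : ℝ} {N : ℕ} : ∑ ω ∈ (box N).powerset, wt L N ω = 1 := by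
  have h := sum_wt_disjoint (L := L) (N := N) (A := ∅) (by simp)
  simpa using h

lemma sum_wt_mem {L : ℝ} {N : ℕ} {κ : ℕ × ℕ} (hκ : κ ∈ box N) :
    ∑ ω ∈ (box N).powerset, (if κ ∈ ω then wt L N ω else 0) = pr L κ := by
  have h := sum_wt_disjoint (L := L) (N := N) (A := {κ}) (by simpa using hκ)
  rw [Finset.prod_singleton] at h
  have h2 := sum_wt (L := L) (N := N)
  have h3 : ∑ ω ∈ (box N).powerset, wt L N ω =
      ∑ ω ∈ (box N).powerset, (if κ ∈ ω then wt L N ω else 0) +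
      ∑ ω ∈ (box N).powerset, (if Disjoint ω {κ} then wt L N ω else 0) := by
    rw [← Finset.sum_add_distrib]
    refine Finset.sum_congr rfl fun ω _ => ?_
    by_cases hc : κ ∈ ω
    · rw [if_pos hc, if_neg (by rw [Finset.disjoint_singleton_right]; exact not_not.2 hc),
        add_zero]
    · rw [if_neg hc, if_pos (Finset.disjoint_singleton_right.2 hc), zero_add]
  linarith

end Vale.Agent.P235.Wall
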