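import Vale.Agent.P235.R2.H453.WallDef
import Mathlib.Algebra.Order.Field.GeomSum

set_option linter.all false

/-!
# P235, the wall lemma: the expected distance

The contraction of the random walls shortens every distance by at most `12 / L` of it on average.
-/

namespace Vale.Agent.P235.Wall

open Finset

variable {V : Type} {G : SimpleGraph V} {o : V}

section dw

variable {w : Walls G o}

lemma dw_spec (hG : G.Connected) (x y : V) : Pth w x y (dw w x y) :=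
  Nat.sInf_mem (s := {n | Pth w x y n}) ⟨_, Pth.of_dist hG x y⟩

lemma dw_le {x y : V} {n : ℕ} (h : Pth w x y n) : dw w x y ≤ n := Nat.sInf_le h

lemma dw_le_dist (hG : G.Connected) (x y : V) : dw w x y ≤ G.dist x y :=
  dw_le (Pth.of_dist hG x y)

lemma dw_self (x : V) : dw w x x = 0 := Nat.le_zero.1 (dw_le .nil)

lemma dw_comm (hG : G.Connected) (x y : V) : dw w x y = dw w y x :=
  le_antisymm (dw_le (dw_spec hG y x).symm) (dw_le (dw_spec hG x y).symm)

lemma dw_triangle (hG : G.Connected) (x y z : V) : dw w x z ≤ dw w x y + dw w y z :=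
  dw_le ((dw_spec hG x y).trans (dw_spec hG y z))

lemma dw_jump {x y : V} (h : J w x y) : dw w x y = 0 :=
  Nat.le_zero.1 (dw_le (Pth.nil.jump h))

lemma lev_le_dw (hG : G.Connected) (x y : V) : lev G o y ≤ lev G o x + dw w x y :=
  (dw_spec hG x y).lev_le hG

/-- the distance from the root does not change -/
lemma dw_root (hG : G.Connected) (x : V) : dw w o x = lev G o x := by
  refine le_antisymm (dw_le_dist hG o x) ?_
  have h := lev_le_dw (w := w) hG o x
  have h0 : lev G o o = 0 := by simp [lev]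
  omega

end dw

open Classical in
/-- the pairs which may be relevant for `z` -/
noncomputable def cand (G : SimpleGraph V) (o : V) (N r : ℕ) (z : V) : Finset (ℕ × ℕ) :=
  (box N).filter fun κ => 2 ^ κ.1 ≤ κ.2 ∧ κ.2 - 2 ^ κ.1 < lev G o z ∧
    2 ^ κ.1 ≤ wid G o (κ.2 - 2 ^ κ.1) z ∧ wid G o (κ.2 - 2 ^ κ.1) z < 2 ^ (κ.1 + 1) ∧
    κ.2 < lev G o z + r ∧ lev G o z < κ.2 + r

lemma mem_rel {ω : Finset (ℕ × ℕ)} {N r : ℕ} {z : V} {κ : ℕ × ℕ} :
    κ ∈ rel (walls G o ω) N r z ↔ κ ∈ cand G o N r z ∧ κ ∈ ω := by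
  classical
  unfold rel cand
  simp only [Finset.mem_filter]
  constructor
  · rintro ⟨h1, ⟨h2, h3, h4, h5, h6⟩, h7, h8⟩
    exact ⟨⟨h1, h3, h4, h5, h6, h7, h8⟩, h2⟩
  · rintro ⟨⟨h1, h3, h4, h5, h6, h7, h8⟩, h2⟩
    exact ⟨h1, ⟨h2, h3, h4, h5, h6⟩, h7, h8⟩

lemma sum_rel {L : ℝ} {N r : ℕ} {z : V} (f : ℕ × ℕ → ℝ) :
    ∑ ω ∈ (box N).powerset, wt L N ω * ∑ κ ∈ rel (walls G o ω) N r z, f κ =
      ∑ κ ∈ cand G o N r z, pr L κ * f κ := by
  classical
  have h1 : ∀ ω ∈ (box N).powerset, wt L N ω * ∑ κ ∈ rel (walls G o ω) N r z, f κ =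
      ∑ κ ∈ cand G o N r z, (if κ ∈ ω then wt L N ω else 0) * f κ := by
    intro ω _
    have h2 : rel (walls G o ω) N r z = (cand G o N r z).filter fun κ => κ ∈ ω := by
      ext κ
      rw [mem_rel, Finset.mem_filter]
    rw [h2, Finset.sum_filter, Finset.mul_sum]
    refine Finset.sum_congr rfl fun κ _ => ?_
    split_ifs <;> ring
  rw [Finset.sum_congr rfl h1, Finset.sum_comm]
  refine Finset.sum_congr rfl fun κ hκ => ?_
  rw [← Finset.sum_mul, sum_wt_mem (Finset.mem_filter.1 hκ).1]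

lemma card_small {N r : ℕ} {z : V} {C : Finset (ℕ × ℕ)} (hC : C ⊆ cand G o N r z)
    (h : ∀ κ ∈ C, 2 ^ κ.1 ≤ r) : C.card ≤ 2 * r := by
  have h1 : C.card ≤ (Finset.Ico (lev G o z - 2 * r) (lev G o z)).card := by
    refine Finset.card_le_card_of_injOn (fun κ => κ.2 - 2 ^ κ.1) ?_ ?_
    · intro κ hκ
      have h2 := (Finset.mem_filter.1 (hC hκ)).2
      have h3 := h κ hκ
      simp only [Finset.coe_Ico, Set.mem_Ico]
      omega
    · intro κ hκ κ' hκ' he
      have h2 := (Finset.mem_filter.1 (hC hκ)).2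
      have h3 := (Finset.mem_filter.1 (hC hκ')).2
      have he' : κ.2 - 2 ^ κ.1 = κ'.2 - 2 ^ κ'.1 := he
      rw [← he'] at h3
      have h4 : κ.1 < κ'.1 + 1 :=
        (Nat.pow_lt_pow_iff_right (by norm_num : 1 < 2)).1 (h2.2.2.1.trans_lt h3.2.2.2.1)
      have h5 : κ'.1 < κ.1 + 1 :=
        (Nat.pow_lt_pow_iff_right (by norm_num : 1 < 2)).1 (h3.2.2.1.trans_lt h2.2.2.2.1)
      have h6 : κ.1 = κ'.1 := by omega
      refine Prod.ext h6 ?_
      have h7 := h2.1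
      have h8 := h3.1
      rw [← h6] at he' h8
      omega
  rw [Nat.card_Ico] at h1
  omega

lemma sum_large {N r : ℕ} (hr : 0 < r) :
    (∑ k ∈ (range N).filter (fun k => r < 2 ^ k), (1 / 2 : ℝ) ^ k) * r ≤ 2 := by
  have h1 : (range N).filter (fun k => r < 2 ^ k) ⊆ Finset.Ico (Nat.log 2 r + 1) N := by
    intro k hk
    rw [Finset.mem_filter, Finset.mem_range] at hk
    rw [Finset.mem_Ico]
    refine ⟨?_, hk.1⟩
    have := Nat.log_lt_of_lt_pow hr.ne' hk.2
    omega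
  have h2 := Finset.sum_le_sum_of_subset_of_nonneg (f := fun k => (1 / 2 : ℝ) ^ k) h1
    (fun _ _ _ => by positivity)
  have h3 := geom_sum_Ico_le_of_lt_one (x := (1 / 2 : ℝ)) (m := Nat.log 2 r + 1) (n := N)
    (by norm_num) (by norm_num)
  have h4 : (r : ℝ) < 2 ^ (Nat.log 2 r + 1) := by
    exact_mod_cast Nat.lt_pow_succ_log_self (by norm_num : 1 < 2) r
  have h5 : (1 / 2 : ℝ) ^ (Nat.log 2 r + 1) * r ≤ 1 := by
    rw [one_div, inv_pow, inv_mul_le_iff₀ (by positivity)]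
    linarith
  have hr' : (0 : ℝ) ≤ r := Nat.cast_nonneg r
  have h6 := h2.trans h3
  calc (∑ k ∈ (range N).filter (fun k => r < 2 ^ k), (1 / 2 : ℝ) ^ k) * r
      ≤ (1 / 2 : ℝ) ^ (Nat.log 2 r + 1) / (1 - 1 / 2) * r := mul_le_mul_of_nonneg_right h6 hr'
    _ = 2 * ((1 / 2 : ℝ) ^ (Nat.log 2 r + 1) * r) := by ring
    _ ≤ 2 := by linarith

lemma cand_sum_le {L : ℝ} (hL : 1 ≤ L) {N r : ℕ} {z : V} :
    ∑ κ ∈ cand G o N r z, pr L κ * (min (2 ^ (κ.1 + 2)) r : ℕ) ≤ 6 * r / L := by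
  classical
  rcases Nat.eq_zero_or_pos r with hr | hr
  · subst hr
    simp
  have hL0 : 0 < L := by linarith
  rw [← Finset.sum_filter_add_sum_filter_not (cand G o N r z) (fun κ => 2 ^ κ.1 ≤ r)]
  have h1 : ∑ κ ∈ (cand G o N r z).filter (fun κ => 2 ^ κ.1 ≤ r),
      pr L κ * (min (2 ^ (κ.1 + 2)) r : ℕ) ≤ 4 * r / L := by
    have h2 : ∀ κ ∈ (cand G o N r z).filter (fun κ => 2 ^ κ.1 ≤ r),
        pr L κ * (min (2 ^ (κ.1 + 2)) r : ℕ) ≤ 2 / L := by
      intro κ _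
      have h3 : ((min (2 ^ (κ.1 + 2)) r : ℕ) : ℝ) ≤ 2 ^ (κ.1 + 2) := by
        exact_mod_cast Nat.min_le_left _ _
      calc pr L κ * (min (2 ^ (κ.1 + 2)) r : ℕ) ≤ pr L κ * 2 ^ (κ.1 + 2) :=
            mul_le_mul_of_nonneg_left h3 (pr_nonneg hL κ)
        _ = 2 / L := by
            unfold pr
            rw [pow_succ (2 : ℝ) (κ.1 + 1)]
            field_simp
    have h4 := Finset.sum_le_card_nsmul _ _ _ h2
    have h5 := card_small (Finset.filter_subset (fun κ => 2 ^ κ.1 ≤ r) (cand G o N r z))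
      (fun κ hκ => (Finset.mem_filter.1 hκ).2)
    have h6 : (((cand G o N r z).filter (fun κ => 2 ^ κ.1 ≤ r)).card : ℝ) ≤ 2 * r := by
      exact_mod_cast h5
    rw [nsmul_eq_mul] at h4
    calc _ ≤ _ := h4
      _ ≤ 2 * r * (2 / L) := mul_le_mul_of_nonneg_right h6 (by positivity)
      _ = 4 * r / L := by ring
  have h2 : ∑ κ ∈ (cand G o N r z).filter (fun κ => ¬ 2 ^ κ.1 ≤ r),
      pr L κ * (min (2 ^ (κ.1 + 2)) r : ℕ) ≤ 2 * r / L := by
    have h3 : (cand G o N r z).filter (fun κ => ¬ 2 ^ κ.1 ≤ r) ⊆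
        ((range N).filter fun k => r < 2 ^ k) ×ˢ
          Finset.Ico (lev G o z + 1 - r) (lev G o z + r) := by
      intro κ hκ
      rw [Finset.mem_filter] at hκ
      have h4 := Finset.mem_filter.1 hκ.1
      have h5 := Finset.mem_product.1 h4.1
      refine Finset.mem_product.2 ⟨Finset.mem_filter.2 ⟨h5.1, not_le.1 hκ.2⟩, ?_⟩
      rw [Finset.mem_Ico]
      omega
    have h6 : ∀ κ ∈ (cand G o N r z).filter (fun κ => ¬ 2 ^ κ.1 ≤ r),
        pr L κ * (min (2 ^ (κ.1 + 2)) r : ℕ) ≤ r / (2 * L) * (1 / 2 : ℝ) ^ κ.1 := by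
      intro κ _
      have h7 : ((min (2 ^ (κ.1 + 2)) r : ℕ) : ℝ) ≤ r := by
        exact_mod_cast Nat.min_le_right _ _
      calc pr L κ * (min (2 ^ (κ.1 + 2)) r : ℕ) ≤ pr L κ * r :=
            mul_le_mul_of_nonneg_left h7 (pr_nonneg hL κ)
        _ = r / (2 * L) * (1 / 2 : ℝ) ^ κ.1 := by
            unfold pr
            rw [pow_succ, one_div (2 : ℝ), inv_pow]
            field_simp
    have h8 := Finset.sum_le_sum h6
    have h9 := Finset.sum_le_sum_of_subset_of_nonneg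
      (f := fun κ : ℕ × ℕ => r / (2 * L) * (1 / 2 : ℝ) ^ κ.1) h3
      (fun _ _ _ => by positivity)
    refine h8.trans (h9.trans ?_)
    rw [Finset.sum_product]
    have h10 : ∀ k : ℕ, ∑ s ∈ Finset.Ico (lev G o z + 1 - r) (lev G o z + r),
        r / (2 * L) * (1 / 2 : ℝ) ^ (k, s).1 ≤ (r * r / L) * (1 / 2 : ℝ) ^ k := by
      intro k
      show ∑ s ∈ Finset.Ico (lev G o z + 1 - r) (lev G o z + r),
        r / (2 * L) * (1 / 2 : ℝ) ^ k ≤ (r * r / L) * (1 / 2 : ℝ) ^ k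
      rw [Finset.sum_const, nsmul_eq_mul, Nat.card_Ico]
      have h11 : ((lev G o z + r - (lev G o z + 1 - r) : ℕ) : ℝ) ≤ 2 * r := by
        have : lev G o z + r - (lev G o z + 1 - r) ≤ 2 * r := by omega
        exact_mod_cast this
      calc _ ≤ 2 * r * (r / (2 * L) * (1 / 2 : ℝ) ^ k) :=
            mul_le_mul_of_nonneg_right h11 (by positivity)
        _ = _ := by field_simp
    refine (Finset.sum_le_sum fun k _ => h10 k).trans ?_
    rw [← Finset.mul_sum]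
    have h12 := sum_large (N := N) hr
    calc r * r / L * ∑ k ∈ (range N).filter (fun k => r < 2 ^ k), (1 / 2 : ℝ) ^ k
        = r / L * ((∑ k ∈ (range N).filter (fun k => r < 2 ^ k), (1 / 2 : ℝ) ^ k) * r) := by
          ring
      _ ≤ r / L * 2 := mul_le_mul_of_nonneg_left h12 (by positivity)
      _ = 2 * r / L := by ring
  calc _ ≤ 4 * r / L + 2 * r / L := add_le_add h1 h2
    _ = 6 * r / L := by ring

/-- **The wall lemma, expected distance.** -/
theorem wall_expect [Finite V] (hG : G.Connected) {N : ℕ} (hN : ∀ v, lev G o v < N) {L : ℝ}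
    (hL : 1 ≤ L) (x y : V) :
    (1 - 12 / L) * G.dist x y ≤
      ∑ ω ∈ (box N).powerset, wt L N ω * dw (walls G o ω) x y := by
  obtain ⟨r, hr⟩ : ∃ r, r = G.dist x y := ⟨_, rfl⟩
  have h1 : ∀ ω ∈ (box N).powerset, wt L N ω * r ≤ wt L N ω * dw (walls G o ω) x y +
      wt L N ω * ∑ κ ∈ rel (walls G o ω) N r x, ((min (2 ^ (κ.1 + 2)) r : ℕ) : ℝ) +
      wt L N ω * ∑ κ ∈ rel (walls G o ω) N r y, ((min (2 ^ (κ.1 + 2)) r : ℕ) : ℝ) := by
    intro ω _
    have h2 := wall_le hG hN (dw_spec (w := walls G o ω) hG x y)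
    rw [← hr] at h2
    rw [← mul_add, ← mul_add]
    refine mul_le_mul_of_nonneg_left ?_ (wt_nonneg hL N ω)
    exact_mod_cast h2
  have h2 := Finset.sum_le_sum h1
  rw [← Finset.sum_mul, sum_wt, one_mul, Finset.sum_add_distrib, Finset.sum_add_distrib,
    sum_rel, sum_rel] at h2
  have h3 := cand_sum_le (G := G) (o := o) hL (N := N) (r := r) (z := x)
  have h4 := cand_sum_le (G := G) (o := o) hL (N := N) (r := r) (z := y)
  rw [← hr]
  have h5 : (1 - 12 / L) * (r : ℝ) = r - (6 * r / L + 6 * r / L) := by ring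
  rw [h5]
  linarith

end Vale.Agent.P235.Wall
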